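import Mathlib

/-!
# P097 / case [c], (W): explicit majorant on the half plane

`hm u r K θ w = K * (1 - i (w - u) / r) ^ θ`, `0 ≤ θ < 1`, on `{-r < Im (w - u)}`: its real part is
comparable with `K * (1 + |w - u| / r) ^ θ` for `0 ≤ Im (w - u)`.
`grow`: every polylogarithmic term and `exp (polylog ^ a)`, `a < 1`, is below a power.
`maj`: both together.
-/

set_option linter.all false

open Complex Metric Set Filter Topology

namespace Vale.Agent.P097.H128.W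

/-- the variable `1 - i (w - u) / r` -/
noncomputable def zz (u : ℂ) (r : ℝ) (w : ℂ) : ℂ := 1 - I * ((w - u) / (r : ℂ))

/-- the majorant -/
noncomputable def hm (u : ℂ) (r K θ : ℝ) (w : ℂ) : ℂ := (K : ℂ) * (zz u r w) ^ (θ : ℂ)

variable {u w : ℂ} {r K θ : ℝ}

theorem zz_re (hr : 0 < r) : (zz u r w).re = 1 + (w - u).im / r := by
  rw [zz, show (w - u) / (r : ℂ) = ((w - u) * ((r⁻¹ : ℝ) : ℂ)) by
    rw [div_eq_mul_inv, Complex.ofReal_inv]]
  simp only [sub_re, one_re, mul_re, I_re, I_im, zero_mul, one_mul, zero_sub, mul_im, ofReal_re,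
    ofReal_im, mul_zero, zero_add, div_eq_mul_inv, sub_im]
  ring

theorem zz_norm_le (hr : 0 < r) : ‖zz u r w‖ ≤ 1 + ‖w - u‖ / r := by
  rw [zz]
  refine (norm_sub_le _ _).trans ?_
  rw [norm_one, norm_mul, norm_I, one_mul, norm_div, Complex.norm_real, Real.norm_eq_abs,
    abs_of_pos hr]

theorem zz_pos (hr : 0 < r) (h : -r < (w - u).im) : 0 < (zz u r w).re := by
  rw [zz_re hr]
  have : -1 < (w - u).im / r := by rw [lt_div_iff₀ hr]; linarith
  linarith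

/-- `1 + |w - u| / r ≤ 2 |1 - i (w - u) / r|` in the upper half plane -/
theorem zz_ge (hr : 0 < r) (h : 0 ≤ (w - u).im) : 1 + ‖w - u‖ / r ≤ 2 * ‖zz u r w‖ := by
  have h1 : 1 ≤ ‖zz u r w‖ := by
    have h2 := Complex.re_le_norm (zz u r w)
    rw [zz_re hr] at h2
    have : 0 ≤ (w - u).im / r := div_nonneg h hr.le
    linarith
  have h2 : ‖w - u‖ / r ≤ ‖zz u r w‖ := by
    set ζ : ℂ := (w - u) / (r : ℂ) with hζ
    have hn : ‖ζ‖ = ‖w - u‖ / r := by
      rw [hζ, norm_div, Complex.norm_real, Real.norm_eq_abs, abs_of_pos hr]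
    have him : 0 ≤ ζ.im := by
      have : ζ.im = (w - u).im / r := by
        rw [hζ, show (w - u) / (r : ℂ) = ((w - u) * ((r⁻¹ : ℝ) : ℂ)) by
          rw [div_eq_mul_inv, Complex.ofReal_inv]]
        simp only [mul_im, ofReal_re, ofReal_im, mul_zero, zero_add, div_eq_mul_inv]
      rw [this]; exact div_nonneg h hr.le
    rw [← hn]
    have e : ‖zz u r w‖ ^ 2 = 1 + 2 * ζ.im + ‖ζ‖ ^ 2 := by
      have e1 : zz u r w = 1 - I * ζ := rfl
      rw [e1, ← Complex.normSq_eq_norm_sq, ← Complex.normSq_eq_norm_sq, Complex.normSq_apply,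
        Complex.normSq_apply]
      simp only [sub_re, one_re, mul_re, I_re, I_im, zero_mul, one_mul, zero_sub, mul_im,
        sub_im, one_im, zero_add, sub_neg_eq_add]
      ring
    have : ‖ζ‖ ^ 2 ≤ ‖zz u r w‖ ^ 2 := by rw [e]; linarith
    exact le_of_sq_le_sq this (norm_nonneg _)
  linarith

theorem zz_diff (u : ℂ) (r : ℝ) : Differentiable ℂ (zz u r) := by
  unfold zz
  fun_prop

/-- (M1) -/
theorem hm_diff (hr : 0 < r) : DifferentiableOn ℂ (hm u r K θ) {w | -r < (w - u).im} := by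
  intro w hw
  have h1 : zz u r w ∈ slitPlane := Or.inl (zz_pos hr hw)
  have h2 : DifferentiableAt ℂ (fun w => (zz u r w) ^ (θ : ℂ)) w :=
    ((zz_diff u r) w).cpow_const h1
  exact (h2.const_mul (K : ℂ)).differentiableWithinAt

theorem zz_ne (hr : 0 < r) (h : -r < (w - u).im) : zz u r w ≠ 0 := by
  intro h0
  have := zz_pos (u := u) hr h
  rw [h0] at this
  simp at this

theorem norm_zz_cpow (hr : 0 < r) (h : -r < (w - u).im) :
    ‖(zz u r w) ^ (θ : ℂ)‖ = ‖zz u r w‖ ^ θ := by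
  have h0 := zz_ne (u := u) hr h
  rw [Complex.norm_cpow_of_ne_zero h0]
  simp

theorem re_zz_cpow (hr : 0 < r) (h : -r < (w - u).im) :
    ((zz u r w) ^ (θ : ℂ)).re = ‖zz u r w‖ ^ θ * Real.cos (θ * (zz u r w).arg) := by
  have h0 := zz_ne (u := u) hr h
  have hn : 0 < ‖zz u r w‖ := norm_pos_iff.2 h0
  rw [Complex.cpow_def_of_ne_zero h0, Complex.exp_re]
  have e1 : (Complex.log (zz u r w) * (θ : ℂ)).re = Real.log ‖zz u r w‖ * θ := by
    simp [Complex.mul_re, Complex.log_re]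
  have e2 : (Complex.log (zz u r w) * (θ : ℂ)).im = θ * (zz u r w).arg := by
    simp [Complex.mul_im, Complex.log_im, mul_comm]
  rw [e1, e2, Real.rpow_def_of_pos hn]

/-- (M2) lower bound of the real part -/
theorem hm_re (hr : 0 < r) (hK : 0 ≤ K) (hθ0 : 0 ≤ θ) (hθ1 : θ < 1) (h : 0 ≤ (w - u).im) :
    K * (Real.cos (θ * (Real.pi / 2)) / 2) * (1 + ‖w - u‖ / r) ^ θ ≤ (hm u r K θ w).re := by
  have h' : -r < (w - u).im := by linarith
  have hpos := zz_pos (u := u) hr h'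
  have harg : |(zz u r w).arg| < Real.pi / 2 := by
    rw [Complex.abs_arg_lt_pi_div_two_iff]; exact Or.inl hpos
  have hpi := Real.pi_pos
  have hcos0 : 0 < Real.cos (θ * (Real.pi / 2)) := by
    apply Real.cos_pos_of_mem_Ioo
    constructor
    · have : 0 ≤ θ * (Real.pi / 2) := by positivity
      linarith
    · have : θ * (Real.pi / 2) < 1 * (Real.pi / 2) :=
        mul_lt_mul_of_pos_right hθ1 (by positivity)
      linarith
  have hcos : Real.cos (θ * (Real.pi / 2)) ≤ Real.cos (θ * (zz u r w).arg) := by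
    rw [← Real.cos_abs (θ * (zz u r w).arg), abs_mul, abs_of_nonneg hθ0]
    apply Real.cos_le_cos_of_nonneg_of_le_pi
    · positivity
    · have : θ * (Real.pi / 2) ≤ 1 * (Real.pi / 2) := by gcongr
      linarith
    · exact mul_le_mul_of_nonneg_left harg.le hθ0
  have e : (hm u r K θ w).re = K * ((zz u r w) ^ (θ : ℂ)).re := by
    rw [hm, Complex.re_ofReal_mul]
  rw [e, re_zz_cpow hr h']
  have hz0 : 0 ≤ ‖w - u‖ / r := by positivity
  have h1 : (1 + ‖w - u‖ / r) ^ θ ≤ 2 * ‖zz u r w‖ ^ θ := by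
    calc (1 + ‖w - u‖ / r) ^ θ ≤ (2 * ‖zz u r w‖) ^ θ :=
          Real.rpow_le_rpow (by positivity) (zz_ge hr h) hθ0
      _ = 2 ^ θ * ‖zz u r w‖ ^ θ := Real.mul_rpow (by norm_num) (norm_nonneg _)
      _ ≤ 2 * ‖zz u r w‖ ^ θ := by
          apply mul_le_mul_of_nonneg_right _ (Real.rpow_nonneg (norm_nonneg _) _)
          calc (2 : ℝ) ^ θ ≤ 2 ^ (1 : ℝ) := Real.rpow_le_rpow_of_exponent_le (by norm_num) hθ1.le
            _ = 2 := Real.rpow_one 2
  have hn0 : 0 ≤ ‖zz u r w‖ ^ θ := Real.rpow_nonneg (norm_nonneg _) _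
  calc K * (Real.cos (θ * (Real.pi / 2)) / 2) * (1 + ‖w - u‖ / r) ^ θ
      ≤ K * (Real.cos (θ * (Real.pi / 2)) / 2) * (2 * ‖zz u r w‖ ^ θ) :=
        mul_le_mul_of_nonneg_left h1 (by positivity)
    _ = K * (‖zz u r w‖ ^ θ * Real.cos (θ * (Real.pi / 2))) := by ring
    _ ≤ K * (‖zz u r w‖ ^ θ * Real.cos (θ * (zz u r w).arg)) := by gcongr

/-- (M3), (M4) upper bound of the modulus -/
theorem hm_norm (hr : 0 < r) (hK : 0 ≤ K) (hθ0 : 0 ≤ θ) (h : -r < (w - u).im) :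
    ‖hm u r K θ w‖ ≤ K * (1 + ‖w - u‖ / r) ^ θ := by
  rw [hm, norm_mul, Complex.norm_real, Real.norm_eq_abs, abs_of_nonneg hK, norm_zz_cpow hr h]
  exact mul_le_mul_of_nonneg_left (Real.rpow_le_rpow (norm_nonneg _) (zz_norm_le hr) hθ0) hK

/-- a sublinear power is below a linear function plus a constant -/
theorem rpow_le_lin {a c C : ℝ} (ha0 : 0 ≤ a) (ha : a < 1) (hc : 0 < c) (hC : 0 ≤ C) :
    ∃ B, 0 ≤ B ∧ ∀ y : ℝ, 0 < y → C * y ^ a ≤ c * y + B := by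
  set y1 : ℝ := ((C + 1) / c) ^ (1 / (1 - a)) with hy1
  have h1a : 0 < 1 - a := by linarith
  have hq : 0 < (C + 1) / c := by positivity
  have hy0 : 0 < y1 := Real.rpow_pos_of_pos hq _
  have hB : 0 ≤ C * y1 ^ a := by positivity
  refine ⟨C * y1 ^ a, hB, ?_⟩
  intro y hy
  rcases le_or_gt y y1 with h | h
  · have : y ^ a ≤ y1 ^ a := Real.rpow_le_rpow hy.le h ha0
    have h2 : C * y ^ a ≤ C * y1 ^ a := mul_le_mul_of_nonneg_left this hC
    have : 0 ≤ c * y := by positivity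
    linarith
  · have h3 : (C + 1) / c ≤ y ^ (1 - a) := by
      have h4 : y1 ^ (1 - a) = (C + 1) / c := by
        rw [hy1, ← Real.rpow_mul hq.le, one_div, inv_mul_cancel₀ h1a.ne', Real.rpow_one]
      rw [← h4]
      exact Real.rpow_le_rpow hy0.le h.le h1a.le
    have h5 : C ≤ c * y ^ (1 - a) := by
      rw [div_le_iff₀ hc] at h3
      linarith
    have h6 : C * y ^ a ≤ c * y ^ (1 - a) * y ^ a :=
      mul_le_mul_of_nonneg_right h5 (Real.rpow_nonneg hy.le _)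
    have h7 : c * y ^ (1 - a) * y ^ a = c * y := by
      rw [mul_assoc, ← Real.rpow_add hy]
      norm_num
    linarith

/-- **growth**: polylogarithms and `exp (polylog ^ a)`, `a < 1`, are below any positive power -/
theorem grow {θ θ' a C C' C₂ M : ℝ} (N : ℕ) (h : θ ≤ θ') (h0 : 0 < θ') (ha0 : 0 ≤ a) (ha : a < 1)
    (hC : 0 ≤ C) (hC' : 0 ≤ C') (hC₂ : 0 ≤ C₂) (hM : 1 ≤ M) :
    ∃ K, 0 ≤ K ∧ ∀ z : ℝ, 0 ≤ z → C * (1 + z) ^ θ + C' * (M + Real.log (1 + z)) ^ N +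
      Real.exp (C₂ * (M + Real.log (1 + z)) ^ a) ≤ K * (1 + z) ^ θ' := by
  obtain ⟨B, hB0, hB⟩ := rpow_le_lin ha0 ha h0 hC₂
  refine ⟨C + C' * (N.factorial / θ' ^ N * Real.exp (θ' * M)) + Real.exp (θ' * M + B),
    by positivity, ?_⟩
  intro z hz
  have hz1 : 1 ≤ 1 + z := by linarith
  have hz0 : 0 < 1 + z := by linarith
  set x := Real.log (1 + z) with hx
  have hx0 : 0 ≤ x := Real.log_nonneg hz1
  have hMx : 0 < M + x := by linarith
  have e0 : (1 + z) ^ θ' = Real.exp (θ' * x) := by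
    rw [Real.rpow_def_of_pos hz0, mul_comm]
  have h1 : (1 + z) ^ θ ≤ (1 + z) ^ θ' := Real.rpow_le_rpow_of_exponent_le hz1 h
  have h2 : (M + x) ^ N ≤ N.factorial / θ' ^ N * Real.exp (θ' * M) * Real.exp (θ' * x) := by
    have h3 := Real.pow_div_factorial_le_exp (θ' * (M + x)) (by positivity) N
    rw [div_le_iff₀ (by positivity), mul_pow] at h3
    have h4 : Real.exp (θ' * (M + x)) = Real.exp (θ' * M) * Real.exp (θ' * x) := by
      rw [← Real.exp_add]; congr 1; ring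
    rw [h4] at h3
    have h5 : (M + x) ^ N ≤ (Real.exp (θ' * M) * Real.exp (θ' * x) * N.factorial) / θ' ^ N := by
      rw [le_div_iff₀ (by positivity)]
      linarith
    refine h5.trans (le_of_eq ?_)
    field_simp
  have h3 : Real.exp (C₂ * (M + x) ^ a) ≤ Real.exp (θ' * M + B) * Real.exp (θ' * x) := by
    rw [← Real.exp_add]
    apply Real.exp_le_exp.2
    have := hB (M + x) hMx
    linarith
  have hp : 0 ≤ (1 + z) ^ θ' := Real.rpow_nonneg hz0.le _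
  rw [e0] at h1 ⊢
  have h4 := mul_le_mul_of_nonneg_left h1 hC
  have h5 := mul_le_mul_of_nonneg_left h2 hC'
  have e : (C + C' * (N.factorial / θ' ^ N * Real.exp (θ' * M)) + Real.exp (θ' * M + B)) *
      Real.exp (θ' * x) = C * Real.exp (θ' * x) + C' * (N.factorial / θ' ^ N *
      Real.exp (θ' * M) * Real.exp (θ' * x)) + Real.exp (θ' * M + B) * Real.exp (θ' * x) := by ring
  rw [e]
  linarith

/-- **the majorant** -/
theorem maj {θ a C C' C₂ M : ℝ} (N : ℕ) (hθ0 : 0 ≤ θ) (hθ1 : θ < 1) (ha0 : 0 ≤ a) (ha : a < 1)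
    (hC : 0 ≤ C) (hC' : 0 ≤ C') (hC₂ : 0 ≤ C₂) (hM : 1 ≤ M) :
    ∃ K, 0 ≤ K ∧ ∃ θ', 0 < θ' ∧ θ' < 1 ∧ ∀ (u : ℂ) {r : ℝ}, 0 < r →
      DifferentiableOn ℂ (hm u r K θ') {w | -r < (w - u).im} ∧
      (∀ w : ℂ, 0 ≤ (w - u).im → C * (1 + ‖w - u‖ / r) ^ θ +
        C' * (M + Real.log (1 + ‖w - u‖ / r)) ^ N +
        Real.exp (C₂ * (M + Real.log (1 + ‖w - u‖ / r)) ^ a) ≤ (hm u r K θ' w).re) ∧
      (∀ w : ℂ, 0 ≤ (w - u).im → 0 ≤ (hm u r K θ' w).re) ∧
      ∀ w : ℂ, -r < (w - u).im → ‖hm u r K θ' w‖ ≤ K * (1 + ‖w - u‖ / r) ^ θ' := by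
  set θ' := (θ + 1) / 2 with hθ'
  have h1 : 0 < θ' := by rw [hθ']; linarith
  have h2 : θ' < 1 := by rw [hθ']; linarith
  obtain ⟨K₀, hK0, hK⟩ := grow (C := C) (C' := C') (C₂ := C₂) (M := M) N
    (show θ ≤ θ' by rw [hθ']; linarith) h1 ha0 ha hC hC' hC₂ hM
  have hcos0 : 0 < Real.cos (θ' * (Real.pi / 2)) := by
    have hpi := Real.pi_pos
    apply Real.cos_pos_of_mem_Ioo
    constructor
    · have : 0 ≤ θ' * (Real.pi / 2) := by positivity
      linarith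
    · have : θ' * (Real.pi / 2) < 1 * (Real.pi / 2) :=
        mul_lt_mul_of_pos_right h2 (by positivity)
      linarith
  set K := K₀ / (Real.cos (θ' * (Real.pi / 2)) / 2) with hKd
  have hKn : 0 ≤ K := by positivity
  have hlow : ∀ (u : ℂ) {r : ℝ}, 0 < r → ∀ w : ℂ, 0 ≤ (w - u).im →
      K₀ * (1 + ‖w - u‖ / r) ^ θ' ≤ (hm u r K θ' w).re := by
    intro u r hr w hw
    have h3 := hm_re (u := u) hr hKn h1.le h2 hw
    have e : K * (Real.cos (θ' * (Real.pi / 2)) / 2) = K₀ := by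
      rw [hKd]; exact div_mul_cancel₀ _ (by positivity)
    rwa [e] at h3
  refine ⟨K, hKn, θ', h1, h2, fun u r hr => ⟨hm_diff hr, ?_, ?_, ?_⟩⟩
  · intro w hw
    exact (hK _ (by positivity)).trans (hlow u hr w hw)
  · intro w hw
    exact (by positivity : (0 : ℝ) ≤ K₀ * (1 + ‖w - u‖ / r) ^ θ').trans (hlow u hr w hw)
  · intro w hw
    exact hm_norm hr hKn h1.le hw

/-- the majorant is `o (s / r)` on `|w - u| ≤ s` -/
theorem hm_small {K θ : ℝ} (hK : 0 ≤ K) (hθ0 : 0 ≤ θ) (hθ1 : θ < 1) {ε : ℝ} (hε : 0 < ε) :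
    ∃ τ, 0 < τ ∧ τ ≤ 1 ∧ ∀ (u : ℂ) {r s : ℝ}, 0 < r → r ≤ τ * s → ∀ w : ℂ, -r < (w - u).im →
      ‖w - u‖ ≤ s → ‖hm u r K θ w‖ ≤ ε * (s / r) := by
  have h1 : 0 < 1 - θ := by linarith
  set x1 : ℝ := max 1 ((2 * K / ε) ^ (1 / (1 - θ))) with hx1
  have hx10 : 1 ≤ x1 := le_max_left _ _
  have hq : 0 ≤ 2 * K / ε := by positivity
  refine ⟨x1⁻¹, by positivity, inv_le_one_of_one_le₀ hx10, ?_⟩
  intro u r s hr hrs w hw hws
  have hs : 0 < s := by
    by_contra hcon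
    rw [not_lt] at hcon
    have : x1⁻¹ * s ≤ 0 := mul_nonpos_of_nonneg_of_nonpos (by positivity) hcon
    linarith
  set x := s / r with hx
  have hx0 : x1 ≤ x := by
    rw [hx, le_div_iff₀ hr]
    have : x1 * (x1⁻¹ * s) = s := by field_simp
    calc x1 * r ≤ x1 * (x1⁻¹ * s) := by gcongr
      _ = s := this
  have hx1' : 1 ≤ x := hx10.trans hx0
  have hxp : 0 < x := by linarith
  have h2 := hm_norm (u := u) (w := w) hr hK hθ0 hw
  have h3 : 1 + ‖w - u‖ / r ≤ 2 * x := by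
    have : ‖w - u‖ / r ≤ x := by rw [hx]; gcongr
    linarith
  have h4 : (1 + ‖w - u‖ / r) ^ θ ≤ 2 * x ^ θ := by
    calc (1 + ‖w - u‖ / r) ^ θ ≤ (2 * x) ^ θ := Real.rpow_le_rpow (by positivity) h3 hθ0
      _ = 2 ^ θ * x ^ θ := Real.mul_rpow (by norm_num) hxp.le
      _ ≤ 2 * x ^ θ := by
          apply mul_le_mul_of_nonneg_right _ (Real.rpow_nonneg hxp.le _)
          calc (2 : ℝ) ^ θ ≤ 2 ^ (1 : ℝ) := Real.rpow_le_rpow_of_exponent_le (by norm_num) hθ1.le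
            _ = 2 := Real.rpow_one 2
  have h5 : 2 * K / ε ≤ x ^ (1 - θ) := by
    have h6 : ((2 * K / ε) ^ (1 / (1 - θ))) ^ (1 - θ) = 2 * K / ε := by
      rw [← Real.rpow_mul hq, one_div, inv_mul_cancel₀ h1.ne', Real.rpow_one]
    rw [← h6]
    exact Real.rpow_le_rpow (Real.rpow_nonneg hq _) ((le_max_right _ _).trans hx0) h1.le
  have h7 : 2 * K ≤ ε * x ^ (1 - θ) := by
    rw [div_le_iff₀ hε] at h5; linarith
  calc ‖hm u r K θ w‖ ≤ K * (1 + ‖w - u‖ / r) ^ θ := h2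
    _ ≤ K * (2 * x ^ θ) := mul_le_mul_of_nonneg_left h4 hK
    _ = 2 * K * x ^ θ := by ring
    _ ≤ ε * x ^ (1 - θ) * x ^ θ := mul_le_mul_of_nonneg_right h7 (Real.rpow_nonneg hxp.le _)
    _ = ε * x := by
        rw [mul_assoc, ← Real.rpow_add hxp]
        norm_num

/-- the majorant is bounded at the targets `|w - u| ≤ X r` -/
theorem hm_target {K θ X : ℝ} (hK : 0 ≤ K) (hθ0 : 0 ≤ θ) {u w : ℂ} {r : ℝ} (hr : 0 < r)
    (hw : -r < (w - u).im) (hX : ‖w - u‖ ≤ X * r) : ‖hm u r K θ w‖ ≤ K * (1 + X) ^ θ := by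
  refine (hm_norm hr hK hθ0 hw).trans (mul_le_mul_of_nonneg_left ?_ hK)
  apply Real.rpow_le_rpow (by positivity) _ hθ0
  have : ‖w - u‖ / r ≤ X := by rw [div_le_iff₀ hr]; exact hX
  linarith

end Vale.Agent.P097.H128.W
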