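import Mathlib

/-!
# P097 / case [c], (W): windows at a record of `|V|`

`V i` = value of `log |E_j|` at octave `i` over a nested point (`i` large = fine scale).
`Ch V V0 H0 m₀ m` : chain of octaves `m₀ ≤ i ≤ m`: Harnack factor `H0` per octave above the level
`V0`, the sign does not change above `V0`.
`rec_pt`, `rec_sum`: at a record of `|V|` with `V m > V0` the negative part of the coarser octaves
has a bounded (small, if `V m` is large) sum with weights `ρ ^ l`, as soon as `ρ * √H0 < 1`.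
`exists_record`: records exist.
-/

set_option linter.all false

open Filter Topology Set Finset

namespace Vale.Agent.P097.H128.W

/-- chain of octaves -/
structure Ch (V : ℕ → ℝ) (V0 H0 : ℝ) (m₀ m : ℕ) : Prop where
  V00 : 0 < V0
  H1 : 1 ≤ H0
  up : ∀ i, m₀ ≤ i → i < m → |V i| ≤ H0 * max |V (i + 1)| V0
  dn : ∀ i, m₀ ≤ i → i < m → |V (i + 1)| ≤ H0 * max |V i| V0
  sp : ∀ i, m₀ ≤ i → i < m → V0 < V (i + 1) → 0 ≤ V i
  sm : ∀ i, m₀ ≤ i → i < m → V (i + 1) < -V0 → V i ≤ 0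

variable {V : ℕ → ℝ} {V0 H0 ρ K : ℝ} {m₀ m : ℕ}

theorem Ch.neg (h : Ch V V0 H0 m₀ m) : Ch (fun i => -V i) V0 H0 m₀ m where
  V00 := h.V00
  H1 := h.H1
  up := fun i h1 h2 => by simpa using h.up i h1 h2
  dn := fun i h1 h2 => by simpa using h.dn i h1 h2
  sp := fun i h1 h2 h3 => by have := h.sm i h1 h2 (by linarith); linarith
  sm := fun i h1 h2 h3 => by have := h.sp i h1 h2 (by linarith); linarith

/-- from a thick octave to coarser octaves -/
theorem Ch.coarse (h : Ch V V0 H0 m₀ m) {i : ℕ} (hi : i ≤ m) (hV : |V i| ≤ V0) (j : ℕ)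
    (hj : m₀ + j ≤ i) : |V (i - j)| ≤ H0 ^ j * V0 := by
  induction j with
  | zero => simpa using hV
  | succ j ih =>
    have h1 := ih (by omega)
    have h2 := h.up (i - (j + 1)) (by omega) (by omega)
    have e : i - (j + 1) + 1 = i - j := by omega
    rw [e] at h2
    have h0 := h.V00
    have hH := h.H1
    have h3 : V0 ≤ H0 ^ j * V0 := le_mul_of_one_le_left h0.le (one_le_pow₀ hH)
    calc |V (i - (j + 1))| ≤ H0 * max |V (i - j)| V0 := h2
      _ ≤ H0 * (H0 ^ j * V0) := by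
        apply mul_le_mul_of_nonneg_left (max_le h1 h3) (by linarith)
      _ = H0 ^ (j + 1) * V0 := by ring

/-- from a thick octave to finer octaves -/
theorem Ch.fine (h : Ch V V0 H0 m₀ m) {i : ℕ} (hi : m₀ ≤ i) (hV : |V i| ≤ V0) (j : ℕ)
    (hj : i + j ≤ m) : |V (i + j)| ≤ H0 ^ j * V0 := by
  induction j with
  | zero => simpa using hV
  | succ j ih =>
    have h1 := ih (by omega)
    have h2 := h.dn (i + j) (by omega) (by omega)
    have h0 := h.V00
    have hH := h.H1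
    have h3 : V0 ≤ H0 ^ j * V0 := le_mul_of_one_le_left h0.le (one_le_pow₀ hH)
    calc |V (i + (j + 1))| ≤ H0 * max |V (i + j)| V0 := h2
      _ ≤ H0 * (H0 ^ j * V0) := by
        apply mul_le_mul_of_nonneg_left (max_le h1 h3) (by linarith)
      _ = H0 ^ (j + 1) * V0 := by ring

/-- **records**: pointwise form.  Either `V > V0` at all octaves of the chain, or there is a first
(finest) thick octave `m - l₀`, `V m ≤ V0 * H0 ^ l₀`, `V` is positive at the `l₀` octaves above, and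
`|V (m - l)| ≤ √K * V0 * √H0 ^ l` for all `l ≥ l₀`. -/
theorem rec_pt (h : Ch V V0 H0 m₀ m) (hm : m₀ ≤ m) (hK : 1 ≤ K) (hp : V0 < V m)
    (hr : ∀ i, m₀ ≤ i → i ≤ m → |V i| ≤ K * V m) :
    (∀ i, m₀ ≤ i → i ≤ m → V0 < V i) ∨
    ∃ l₀, 1 ≤ l₀ ∧ m₀ + l₀ ≤ m ∧ V m ≤ V0 * H0 ^ l₀ ∧ (∀ l < l₀, V0 < V (m - l)) ∧
      ∀ l, m₀ + l ≤ m → l₀ ≤ l → |V (m - l)| ≤ √K * V0 * √H0 ^ l := by
  classical
  by_cases hA : ∀ i, m₀ ≤ i → i ≤ m → V0 < V i
  · exact Or.inl hA
  right
  push Not at hA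
  obtain ⟨i, hi1, hi2, hi3⟩ := hA
  have hex : ∃ l, m₀ + l ≤ m ∧ V (m - l) ≤ V0 := ⟨m - i, by omega, by
    have : m - (m - i) = i := by omega
    rw [this]; exact hi3⟩
  set l₀ := Nat.find hex with hl₀
  obtain ⟨f1, f2⟩ := Nat.find_spec hex
  have f3 : ∀ l < l₀, V0 < V (m - l) := by
    intro l hl
    have := Nat.find_min hex hl
    push Not at this
    exact this (by omega)
  have hl1 : 1 ≤ l₀ := by
    rcases Nat.eq_zero_or_pos l₀ with h0 | h0
    · rw [← hl₀, h0, Nat.sub_zero] at f2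
      linarith
    · exact h0
  have hV0 := h.V00
  have hH := h.H1
  have hs : 0 ≤ V (m - l₀) := by
    refine h.sp (m - l₀) (by omega) (by omega) ?_
    have e : m - l₀ + 1 = m - (l₀ - 1) := by omega
    rw [e]
    exact f3 _ (by omega)
  have hth : |V (m - l₀)| ≤ V0 := by rw [abs_of_nonneg hs]; exact f2
  have hVm : V m ≤ V0 * H0 ^ l₀ := by
    have h1 := h.fine (i := m - l₀) (by omega) hth l₀ (by omega)
    have e : m - l₀ + l₀ = m := by omega
    rw [e] at h1
    have := le_abs_self (V m)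
    linarith [mul_comm V0 (H0 ^ l₀)]
  refine ⟨l₀, hl1, f1, hVm, f3, ?_⟩
  intro l hl1 hl2
  have h1 := h.coarse (i := m - l₀) (by omega) hth (l - l₀) (by omega)
  have e : m - l₀ - (l - l₀) = m - l := by omega
  rw [e] at h1
  have h2 := hr (m - l) (by omega) (by omega)
  have h3 : |V (m - l)| ^ 2 ≤ (√K * V0 * √H0 ^ l) ^ 2 := by
    have hK0 : 0 ≤ K := by linarith
    have hH0 : 0 ≤ H0 := by linarith
    have e1 : (√K * V0 * √H0 ^ l) ^ 2 = (K * (V0 * H0 ^ l₀)) * (H0 ^ (l - l₀) * V0) := by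
      have e2 : (√H0 ^ l) ^ 2 = H0 ^ l := by
        rw [← pow_mul, mul_comm l 2, pow_mul, Real.sq_sqrt hH0]
      have e3 : H0 ^ l = H0 ^ l₀ * H0 ^ (l - l₀) := by
        rw [← pow_add]; congr 1; omega
      rw [mul_pow, mul_pow, e2, Real.sq_sqrt hK0, e3]
      ring
    rw [e1, sq]
    have h4 : |V (m - l)| ≤ K * (V0 * H0 ^ l₀) :=
      h2.trans (mul_le_mul_of_nonneg_left hVm hK0)
    exact mul_le_mul h4 h1 (abs_nonneg _) (by positivity)
  exact le_of_sq_le_sq h3 (by positivity)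

/-- **records**: the sum of the negative part -/
theorem rec_sum (h : Ch V V0 H0 m₀ m) (hm : m₀ ≤ m) (hK : 1 ≤ K) (hp : V0 < V m)
    (hr : ∀ i, m₀ ≤ i → i ≤ m → |V i| ≤ K * V m) (hρ : 0 < ρ) (hρH : ρ * √H0 < 1)
    {w : ℕ → ℝ} {C : ℝ} (hw0 : ∀ l, 0 ≤ w l) (hw : ∀ l, w l ≤ C * ρ ^ l) {L : ℕ}
    (hL : V0 * H0 ^ L < V m) :
    ∑ l ∈ range (m - m₀ + 1), w l * max (-V (m - l)) 0 ≤
      C * √K * V0 * (ρ * √H0) ^ L / (1 - ρ * √H0) := by
  have hV0 := h.V00
  have hH := h.H1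
  have hK0 : 0 ≤ √K := Real.sqrt_nonneg K
  have hC : 0 ≤ C := by
    have := (hw0 0).trans (hw 0)
    simpa using this
  have hq0 : 0 ≤ ρ * √H0 := by positivity
  have hpos : 0 ≤ C * √K * V0 * (ρ * √H0) ^ L / (1 - ρ * √H0) :=
    div_nonneg (by positivity) (by linarith)
  rcases rec_pt h hm hK hp hr with hA | ⟨l₀, hl1, hl2, hl3, hl4, hl5⟩
  · have : ∑ l ∈ range (m - m₀ + 1), w l * max (-V (m - l)) 0 = 0 := by
      apply Finset.sum_eq_zero
      intro l hl
      rw [Finset.mem_range] at hl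
      have := hA (m - l) (by omega) (by omega)
      rw [max_eq_right (by linarith), mul_zero]
    rw [this]; exact hpos
  have hLl : L ≤ l₀ := by
    by_contra hcon
    rw [not_le] at hcon
    have : H0 ^ l₀ ≤ H0 ^ L := pow_le_pow_right₀ hH hcon.le
    have h1 : V0 * H0 ^ l₀ ≤ V0 * H0 ^ L := mul_le_mul_of_nonneg_left this hV0.le
    linarith
  have hb : ∀ l ∈ range (m - m₀ + 1), w l * max (-V (m - l)) 0 ≤
      if L ≤ l then C * √K * V0 * (ρ * √H0) ^ l else 0 := by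
    intro l hl
    rw [Finset.mem_range] at hl
    by_cases h1 : l < l₀
    · have := hl4 l h1
      rw [max_eq_right (by linarith), mul_zero]
      split_ifs
      · positivity
      · exact le_refl _
    · rw [not_lt] at h1
      rw [if_pos (by omega)]
      have h2 := hl5 l (by omega) h1
      have h3 : max (-V (m - l)) 0 ≤ √K * V0 * √H0 ^ l :=
        max_le ((neg_le_abs _).trans h2) (by positivity)
      calc w l * max (-V (m - l)) 0 ≤ (C * ρ ^ l) * (√K * V0 * √H0 ^ l) :=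
            mul_le_mul (hw l) h3 (le_max_right _ _) ((hw0 l).trans (hw l))
        _ = _ := by rw [mul_pow]; ring
  refine (Finset.sum_le_sum hb).trans ?_
  have hg : HasSum (fun l => (ρ * √H0) ^ l) (1 - ρ * √H0)⁻¹ := hasSum_geometric_of_lt_one hq0 hρH
  have hsum : ∀ N : ℕ, ∑ l ∈ range N, (if L ≤ l then C * √K * V0 * (ρ * √H0) ^ l else 0) ≤
      C * √K * V0 * (ρ * √H0) ^ L / (1 - ρ * √H0) := by
    intro N
    have h1 : ∑ l ∈ range N, (if L ≤ l then C * √K * V0 * (ρ * √H0) ^ l else 0) ≤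
        ∑ l ∈ range (L + N), (if L ≤ l then C * √K * V0 * (ρ * √H0) ^ l else 0) := by
      apply Finset.sum_le_sum_of_subset_of_nonneg
      · intro x hx; rw [Finset.mem_range] at hx ⊢; omega
      · intro i _ _
        split_ifs
        · positivity
        · exact le_refl _
    refine h1.trans ?_
    rw [Finset.sum_range_add]
    have h2 : ∑ l ∈ range L, (if L ≤ l then C * √K * V0 * (ρ * √H0) ^ l else 0) = 0 := by
      apply Finset.sum_eq_zero
      intro l hl
      rw [Finset.mem_range] at hl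
      rw [if_neg (by omega)]
    have h3 : ∑ l ∈ range N, (if L ≤ L + l then C * √K * V0 * (ρ * √H0) ^ (L + l) else 0) =
        C * √K * V0 * (ρ * √H0) ^ L * ∑ l ∈ range N, (ρ * √H0) ^ l := by
      rw [Finset.mul_sum]
      apply Finset.sum_congr rfl
      intro l _
      rw [if_pos (by omega), pow_add]
      ring
    rw [h2, h3, zero_add, div_eq_mul_inv]
    apply mul_le_mul_of_nonneg_left _ (by positivity)
    exact sum_le_hasSum _ (fun i _ => by positivity) hg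
  exact hsum _

/-- bounded form: at every record -/
theorem rec_sum_bdd (h : Ch V V0 H0 m₀ m) (hm : m₀ ≤ m) (hK : 1 ≤ K) (hp : V0 < V m)
    (hr : ∀ i, m₀ ≤ i → i ≤ m → |V i| ≤ K * V m) (hρ : 0 < ρ) (hρH : ρ * √H0 < 1)
    {w : ℕ → ℝ} {C : ℝ} (hw0 : ∀ l, 0 ≤ w l) (hw : ∀ l, w l ≤ C * ρ ^ l) :
    ∑ l ∈ range (m - m₀ + 1), w l * max (-V (m - l)) 0 ≤ C * √K * V0 / (1 - ρ * √H0) := by
  have := rec_sum h hm hK hp hr hρ hρH hw0 hw (L := 0) (by simpa using hp)
  simpa using this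

/-- **small at large records** -/
theorem rec_sum_small {C : ℝ} (hV0 : 0 < V0) (hH : 1 ≤ H0) (hK : 1 ≤ K) (hρ : 0 < ρ)
    (hρH : ρ * √H0 < 1) {η : ℝ} (hη : 0 < η) :
    ∃ a, ∀ {V : ℕ → ℝ} {m₀ m : ℕ}, Ch V V0 H0 m₀ m → m₀ ≤ m → a < V m →
      (∀ i, m₀ ≤ i → i ≤ m → |V i| ≤ K * V m) → ∀ {w : ℕ → ℝ}, (∀ l, 0 ≤ w l) →
      (∀ l, w l ≤ C * ρ ^ l) →
      ∑ l ∈ range (m - m₀ + 1), w l * max (-V (m - l)) 0 ≤ η := by
  have hq0 : 0 ≤ ρ * √H0 := by positivity
  have ht : Tendsto (fun L : ℕ => C * √K * V0 * (ρ * √H0) ^ L / (1 - ρ * √H0)) atTop (𝓝 0) := by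
    have h1 := tendsto_pow_atTop_nhds_zero_of_lt_one hq0 hρH
    have h2 := (h1.const_mul (C * √K * V0)).div_const (1 - ρ * √H0)
    simpa using h2
  obtain ⟨L, hL⟩ := (ht.eventually (gt_mem_nhds hη)).exists
  refine ⟨V0 * H0 ^ L, ?_⟩
  intro V m₀ m h hm ha hr w hw0 hw
  have hp : V0 < V m := by
    have : V0 ≤ V0 * H0 ^ L := le_mul_of_one_le_right hV0.le (one_le_pow₀ hH)
    linarith
  exact (rec_sum h hm hK hp hr hρ hρH hw0 hw ha).trans hL.le

/-- **records exist** -/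
theorem exists_record {V : ℕ → ℝ} {a : ℝ} (ha : 0 < a) (h : ∃ᶠ m in atTop, a < |V m|) (N : ℕ) :
    ∃ m₀ m, N ≤ m₀ ∧ m₀ + N ≤ m ∧ a / 2 < |V m| ∧ ∀ i, m₀ ≤ i → i ≤ m → |V i| ≤ 2 * |V m| := by
  classical
  by_cases hB : ∃ B, ∀ᶠ m in atTop, |V m| ≤ B
  · obtain ⟨B, hB⟩ := hB
    obtain ⟨n₁, hn₁⟩ := eventually_atTop.1 hB
    set T : ℕ → ℝ := fun k => sSup {x | ∃ i, max n₁ k ≤ i ∧ x = |V i|} with hT
    have hbd : ∀ k, BddAbove {x | ∃ i, max n₁ k ≤ i ∧ x = |V i|} := by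
      intro k
      refine ⟨B, ?_⟩
      rintro x ⟨i, hi, rfl⟩
      exact hn₁ i (le_trans (le_max_left _ _) hi)
    have hne : ∀ k, {x | ∃ i, max n₁ k ≤ i ∧ x = |V i|}.Nonempty := fun k => ⟨_, max n₁ k, le_rfl, rfl⟩
    have hle : ∀ k i, max n₁ k ≤ i → |V i| ≤ T k := fun k i hi => le_csSup (hbd k) ⟨i, hi, rfl⟩
    have haT : ∀ k, a < T k := by
      intro k
      obtain ⟨i, hi, hai⟩ := (frequently_atTop.1 h) (max n₁ k)
      exact hai.trans_le (hle k i hi)
    have hanti : Antitone T := by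
      intro k k' hkk
      apply csSup_le_csSup (hbd k) (hne k')
      rintro x ⟨i, hi, rfl⟩
      exact ⟨i, le_trans (max_le_max le_rfl hkk) hi, rfl⟩
    have hbb : BddBelow (Set.range T) := ⟨a, by rintro x ⟨k, rfl⟩; exact (haT k).le⟩
    have hlim := tendsto_atTop_ciInf hanti hbb
    set W := ⨅ k, T k with hW
    have hWa : a ≤ W := le_ciInf fun k => (haT k).le
    have hWT : ∀ k, W ≤ T k := fun k => ciInf_le hbb k
    have h1 : ∀ᶠ k in atTop, T k < 3 / 2 * W := hlim.eventually (gt_mem_nhds (by linarith))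
    obtain ⟨k, hk1, hk2⟩ := (h1.and (eventually_ge_atTop (max n₁ N))).exists
    have hW0 : 0 < W := by linarith
    obtain ⟨x, ⟨i, hi, rfl⟩, hx⟩ := exists_lt_of_lt_csSup (hne (k + N))
      (show 3 / 4 * W < T (k + N) by have := hWT (k + N); linarith)
    have hkn : n₁ ≤ k := le_trans (le_max_left _ _) hk2
    refine ⟨k, i, le_trans (le_max_right _ _) hk2, le_trans (le_max_right _ _) hi, by linarith, ?_⟩
    intro j hj1 hj2
    have := hle k j (max_le (hkn.trans hj1) hj1)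
    linarith
  · push Not at hB
    -- maximum over the first octaves
    obtain ⟨M, hM⟩ : ∃ M, ∀ i ≤ N + N, |V i| ≤ M := by
      refine ⟨∑ i ∈ range (N + N + 1), |V i|, fun i hi => ?_⟩
      exact Finset.single_le_sum (f := fun i => |V i|) (fun i _ => abs_nonneg _)
        (Finset.mem_range.2 (by omega))
    have hex : ∃ m, N ≤ m ∧ max M a < |V m| := by
      have h1 := hB (max M a)
      obtain ⟨m, hm1, hm2⟩ := (frequently_atTop.1 h1) N
      exact ⟨m, hm1, hm2⟩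
    set m := Nat.find hex with hm
    obtain ⟨h1, h2⟩ := Nat.find_spec hex
    have h3 : M < |V m| := (le_max_left _ _).trans_lt h2
    have h4 : a < |V m| := (le_max_right _ _).trans_lt h2
    refine ⟨N, m, le_rfl, ?_, by linarith, ?_⟩
    · by_contra hcon
      rw [not_le] at hcon
      have := hM m (by omega)
      linarith
    · intro i hi1 hi2
      rcases Nat.lt_or_ge i m with h5 | h5
      · have h6 := Nat.find_min hex h5
        push Not at h6
        have h7 := h6 hi1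
        have h8 : max M a < |V m| := h2
        have := abs_nonneg (V m)
        linarith
      · have : i = m := by omega
        rw [this]
        have := abs_nonneg (V m)
        linarith

/-- **dichotomy** for a family: bounded at all late octaves of almost all points, or large records -/
theorem bdd_or_records {ι : Type*} {l : Filter ι} (V : ι → ℕ → ℝ) :
    (∃ V₁, ∀ᶠ n in l, ∀ᶠ m in atTop, |V n m| ≤ V₁) ∨
    ∀ a : ℝ, ∀ N : ℕ, ∃ᶠ n in l, ∃ m₀ m, N ≤ m₀ ∧ m₀ + N ≤ m ∧ a < |V n m| ∧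
      ∀ i, m₀ ≤ i → i ≤ m → |V n i| ≤ 2 * |V n m| := by
  by_cases h : ∃ V₁, ∀ᶠ n in l, ∀ᶠ m in atTop, |V n m| ≤ V₁
  · exact Or.inl h
  right
  push Not at h
  intro a N
  have h1 := h (2 * (|a| + 1))
  refine h1.mono fun n hn => ?_
  have ha := abs_nonneg a
  obtain ⟨m₀, m, h2, h3, h4, h5⟩ := exists_record (by positivity) hn N
  refine ⟨m₀, m, h2, h3, ?_, h5⟩
  have := le_abs_self a
  linarith

end Vale.Agent.P097.H128.W
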