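import Mathlib

/-!
# P097 / case [c], (W): records in continuous scale

`V S` = value of `log |E_j|` at depth `S` over a nested point, `0 < S ≤ g`.
`tops`: the top scale `G` can be chosen from `V` alone, before the threshold `ρ`.
`records_seq`: for a sequence of nested points either `V n` is bounded at all late scales by one
constant, or there are records `r n ≤ ρ n` with `V n (r n) → ± ∞` along an ultrafilter.
-/

set_option linter.all false

open Filter Topology Set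

namespace Vale.Agent.P097.H128.W

/-- **top scale, then record** -/
theorem tops {V : ℝ → ℝ} {g : ℝ} (hg : 0 < g) (hc : ContinuousOn V (Ioc 0 g)) :
    ∃ G, 0 < G ∧ G ≤ g ∧ ∀ ρ : ℝ, 0 < ρ → ∀ A : ℝ, ∃ r, 0 < r ∧ r ≤ ρ ∧ r ≤ G ∧
      (∀ S, r ≤ S → S ≤ G → |V S| ≤ 2 * |V r| + 1) ∧
      ∀ a, 0 < a → a ≤ A → (∃ᶠ S in 𝓝[>] (0 : ℝ), a < |V S|) → a / 2 < |V r| := by
  classical
  by_cases hB : ∃ B, ∀ᶠ S in 𝓝[>] (0 : ℝ), |V S| ≤ B
  · obtain ⟨B, hB⟩ := hB
    obtain ⟨d, hd0, hd⟩ : ∃ d, 0 < d ∧ ∀ S, 0 < S → S < d → |V S| ≤ B := by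
      rw [eventually_nhdsWithin_iff, Metric.eventually_nhds_iff] at hB
      obtain ⟨d, hd0, hd⟩ := hB
      refine ⟨d, hd0, fun S h1 h2 => hd ?_ h1⟩
      rw [Real.dist_eq, sub_zero, abs_of_pos h1]
      exact h2
    -- the set of eventual bounds
    set T : Set ℝ := {x | ∀ᶠ S in 𝓝[>] (0 : ℝ), |V S| ≤ x} with hT
    have hTB : B ∈ T := hB
    have hne : T.Nonempty := ⟨B, hTB⟩
    have hbd : BddBelow T := by
      refine ⟨0, fun x hx => ?_⟩
      have hx' : ∀ᶠ S in 𝓝[>] (0 : ℝ), |V S| ≤ x := hx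
      obtain ⟨S, hS⟩ := hx'.exists
      exact (abs_nonneg _).trans hS
    set W := sInf T with hW
    have hW0 : 0 ≤ W := by
      apply le_csInf hne
      intro x hx
      have hx' : ∀ᶠ S in 𝓝[>] (0 : ℝ), |V S| ≤ x := hx
      obtain ⟨S, hS⟩ := hx'.exists
      exact (abs_nonneg _).trans hS
    have hup : ∀ x, W < x → ∀ᶠ S in 𝓝[>] (0 : ℝ), |V S| ≤ x := by
      intro x hx
      obtain ⟨y, hy, hyx⟩ := exists_lt_of_csInf_lt hne hx
      have hy' : ∀ᶠ S in 𝓝[>] (0 : ℝ), |V S| ≤ y := hy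
      filter_upwards [hy'] with S hS
      exact hS.trans hyx.le
    have hlo : ∀ x, x < W → ∃ᶠ S in 𝓝[>] (0 : ℝ), x < |V S| := by
      intro x hx hcon
      have h1 : x ∈ T := by
        have : ∀ᶠ S in 𝓝[>] (0 : ℝ), |V S| ≤ x := by
          filter_upwards [hcon] with S hS
          exact not_lt.1 hS
        exact this
      exact absurd (csInf_le hbd h1) (not_le.2 hx)
    set x₁ := max (3 / 2 * W) 1 with hx₁
    have hWx : W < x₁ := by
      rcases lt_or_ge W (2 / 3) with h | h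
      · exact lt_of_lt_of_le (by linarith) (le_max_right _ _)
      · exact lt_of_lt_of_le (by linarith) (le_max_left _ _)
    obtain ⟨G₁, hG10, hG1⟩ : ∃ d, 0 < d ∧ ∀ S, 0 < S → S < d → |V S| ≤ x₁ := by
      have h1 := hup x₁ hWx
      rw [eventually_nhdsWithin_iff, Metric.eventually_nhds_iff] at h1
      obtain ⟨d, hd0, hd⟩ := h1
      refine ⟨d, hd0, fun S h1 h2 => hd ?_ h1⟩
      rw [Real.dist_eq, sub_zero, abs_of_pos h1]
      exact h2
    refine ⟨min (G₁ / 2) g, lt_min (by linarith) hg, min_le_right _ _, ?_⟩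
    intro ρ hρ A
    have hGlt : ∀ S, S ≤ min (G₁ / 2) g → S < G₁ := fun S hS => by
      have := hS.trans (min_le_left _ _)
      linarith
    -- a point with large value
    obtain ⟨r, hr0, hrρ, hrG, hr⟩ : ∃ r, 0 < r ∧ r ≤ ρ ∧ r ≤ min (G₁ / 2) g ∧
        (3 / 4 * W ≤ |V r| ∧ (0 < W → 3 / 4 * W < |V r|)) := by
      have hsm : ∀ᶠ S in 𝓝[>] (0 : ℝ), 0 < S ∧ S ≤ ρ ∧ S ≤ min (G₁ / 2) g := by
        have h1 : Ioo (0 : ℝ) (min ρ (min (G₁ / 2) g)) ∈ 𝓝[>] (0 : ℝ) :=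
          Ioo_mem_nhdsGT (lt_min hρ (lt_min (by linarith) hg))
        filter_upwards [h1] with S hS
        exact ⟨hS.1, hS.2.le.trans (min_le_left _ _), hS.2.le.trans (min_le_right _ _)⟩
      rcases hW0.eq_or_lt with h0 | h0
      · obtain ⟨S, h1, h2, h3⟩ := hsm.exists
        refine ⟨S, h1, h2, h3, ?_, fun h => absurd h (by rw [← h0]; exact lt_irrefl _)⟩
        rw [← h0]; simp
      · obtain ⟨S, h4, h1, h2, h3⟩ := ((hlo (3 / 4 * W) (by linarith)).and_eventually hsm).exists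
        exact ⟨S, h1, h2, h3, h4.le, fun _ => h4⟩
    refine ⟨r, hr0, hrρ, hrG, ?_, ?_⟩
    · intro S h1 h2
      have h3 := hG1 S (hr0.trans_le h1) (hGlt S h2)
      have h4 : x₁ ≤ 3 / 2 * W + 1 := max_le (by linarith) (by linarith)
      linarith [hr.1]
    · intro a ha _ hfr
      have haW : a ≤ W := by
        apply le_csInf hne
        intro x hx
        have hx' : ∀ᶠ S in 𝓝[>] (0 : ℝ), |V S| ≤ x := hx
        obtain ⟨S, h1, h2⟩ := (hfr.and_eventually hx').exists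
        linarith
      have := hr.2 (ha.trans_le haW)
      linarith
  · -- unbounded
    push Not at hB
    refine ⟨g, hg, le_rfl, ?_⟩
    intro ρ hρ A
    set ρ' := min ρ g with hρ'
    have hρ'0 : 0 < ρ' := lt_min hρ hg
    -- bound on the compact part
    have hcK : ContinuousOn (fun S => |V S|) (Icc ρ' g) :=
      (hc.mono fun S hS => ⟨hρ'0.trans_le hS.1, hS.2⟩).abs
    obtain ⟨M, hM⟩ := (isCompact_Icc.image_of_continuousOn hcK).bddAbove
    have hM' : ∀ S, ρ' ≤ S → S ≤ g → |V S| ≤ M := fun S h1 h2 => hM ⟨S, ⟨h1, h2⟩, rfl⟩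
    set L := max M (max A 0) + 1 with hL
    have hLM : M < L := by
      have := le_max_left M (max A 0)
      linarith
    have hLA : A < L := by
      have := (le_max_left A 0).trans (le_max_right M (max A 0))
      linarith
    have hL0 : 0 < L := by
      have := (le_max_right A 0).trans (le_max_right M (max A 0))
      linarith
    -- a point where the value is at least `L`
    obtain ⟨s₀, hs0, hs1, hs2⟩ : ∃ s₀, 0 < s₀ ∧ s₀ < ρ' ∧ L < |V s₀| := by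
      have h1 : Ioo (0 : ℝ) ρ' ∈ 𝓝[>] (0 : ℝ) := Ioo_mem_nhdsGT hρ'0
      obtain ⟨S, h2, h3⟩ := ((hB L).and_eventually h1).exists
      exact ⟨S, h3.1, h3.2, h2⟩
    -- last point above
    set Z : Set ℝ := {S | S ∈ Icc s₀ ρ' ∧ L ≤ |V S|} with hZ
    have hcont : ContinuousOn (fun S => |V S|) (Icc s₀ ρ') :=
      (hc.mono fun S hS => ⟨hs0.trans_le hS.1, hS.2.trans (min_le_right _ _)⟩).abs
    have hZc : IsClosed Z := by
      have : Z = Icc s₀ ρ' ∩ (fun S => |V S|) ⁻¹' (Ici L) := rfl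
      rw [this]
      exact hcont.preimage_isClosed_of_isClosed isClosed_Icc isClosed_Ici
    have hZne : Z.Nonempty := ⟨s₀, ⟨le_rfl, hs1.le⟩, hs2.le⟩
    have hZb : BddAbove Z := ⟨ρ', fun S hS => hS.1.2⟩
    set r := sSup Z with hr
    have hrZ : r ∈ Z := hZc.csSup_mem hZne hZb
    have hr0 : 0 < r := hs0.trans_le hrZ.1.1
    have hrρ : r ≤ ρ' := hrZ.1.2
    refine ⟨r, hr0, hrρ.trans (min_le_left _ _), hrρ.trans (min_le_right _ _), ?_, ?_⟩
    · intro S h1 h2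
      rcases le_or_gt S ρ' with h3 | h3
      · rcases h1.eq_or_lt with h4 | h4
        · rw [← h4]
          have := abs_nonneg (V r)
          linarith
        · have h5 : S ∉ Z := fun h => absurd (le_csSup hZb h) (not_le.2 h4)
          have h6 : |V S| < L := by
            by_contra hcon
            exact h5 ⟨⟨hrZ.1.1.trans h1, h3⟩, not_lt.1 hcon⟩
          have := hrZ.2
          linarith
      · have h4 := hM' S h3.le h2
        have := hrZ.2
        linarith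
    · intro a ha haA _
      have := hrZ.2
      linarith

/-- **records for a sequence of nested points** -/
theorem records_seq {V : ℕ → ℝ → ℝ} {g : ℕ → ℝ} (hg : ∀ n, 0 < g n)
    (hc : ∀ n, ContinuousOn (V n) (Ioc 0 (g n))) :
    ∃ G : ℕ → ℝ, (∀ n, 0 < G n ∧ G n ≤ g n) ∧ ∀ ρ : ℕ → ℝ, (∀ n, 0 < ρ n) →
      ∃ r : ℕ → ℝ, (∀ n, 0 < r n ∧ r n ≤ ρ n ∧ r n ≤ G n) ∧
        (∀ n S, r n ≤ S → S ≤ G n → |V n S| ≤ 2 * |V n (r n)| + 1) ∧
        ((∃ V₁, ∀ᶠ n in atTop, ∀ᶠ S in 𝓝[>] (0 : ℝ), |V n S| ≤ V₁) ∨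
          (∃ 𝒰 : Ultrafilter ℕ, (𝒰 : Filter ℕ) ≤ atTop ∧
            Tendsto (fun n => V n (r n)) (𝒰 : Filter ℕ) atTop) ∨
          ∃ 𝒰 : Ultrafilter ℕ, (𝒰 : Filter ℕ) ≤ atTop ∧
            Tendsto (fun n => V n (r n)) (𝒰 : Filter ℕ) atBot) := by
  choose G hG0 hG1 hG2 using fun n => tops (hg n) (hc n)
  refine ⟨G, fun n => ⟨hG0 n, hG1 n⟩, ?_⟩
  intro ρ hρ
  choose r hr0 hr1 hr2 hr3 hr4 using fun n => hG2 n (ρ n) (hρ n) (n : ℝ)
  refine ⟨r, fun n => ⟨hr0 n, hr1 n, hr2 n⟩, hr3, ?_⟩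
  by_cases hb : ∃ V₁, ∀ᶠ n in atTop, ∀ᶠ S in 𝓝[>] (0 : ℝ), |V n S| ≤ V₁
  · exact Or.inl hb
  right
  push Not at hb
  -- a sequence of indices
  have h1 : ∀ k : ℕ, ∃ n, k ≤ n ∧ ∃ᶠ S in 𝓝[>] (0 : ℝ), ((k : ℝ) + 1) < |V n S| := by
    intro k
    obtain ⟨n, hn1, hn2⟩ := (frequently_atTop.1 (hb ((k : ℝ) + 1))) (k + 1)
    exact ⟨n, by omega, hn2⟩
  have h1' : ∀ k : ℕ, ∃ n, k + 1 ≤ n ∧ ∃ᶠ S in 𝓝[>] (0 : ℝ), ((k : ℝ) + 1) < |V n S| := by
    intro k
    obtain ⟨n, hn1, hn2⟩ := (frequently_atTop.1 (hb ((k : ℝ) + 1))) (k + 1)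
    exact ⟨n, hn1, hn2⟩
  choose ν hν1 hν2 using h1'
  have hνt : Tendsto ν atTop atTop := tendsto_atTop_mono (fun k => (Nat.le_succ k).trans (hν1 k)) tendsto_id
  have hV : ∀ k : ℕ, ((k : ℝ) + 1) / 2 < |V (ν k) (r (ν k))| := by
    intro k
    refine hr4 (ν k) ((k : ℝ) + 1) (by positivity) ?_ (hν2 k)
    have := hν1 k
    exact_mod_cast this
  set 𝒰 : Ultrafilter ℕ := Ultrafilter.of (map ν atTop) with h𝒰
  have hU1 : (𝒰 : Filter ℕ) ≤ map ν atTop := Ultrafilter.of_le _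
  have hU2 : (𝒰 : Filter ℕ) ≤ atTop := hU1.trans hνt
  have hT : Tendsto (fun n => |V n (r n)|) (𝒰 : Filter ℕ) atTop := by
    refine Tendsto.mono_left ?_ hU1
    rw [tendsto_map'_iff]
    have h2 : Tendsto (fun k : ℕ => ((k : ℝ) + 1) / 2) atTop atTop :=
      (tendsto_atTop_add_const_right _ _ tendsto_natCast_atTop_atTop).atTop_div_const (by norm_num)
    exact tendsto_atTop_mono (fun k => (hV k).le) h2
  rcases Ultrafilter.em 𝒰 (fun n => 0 ≤ V n (r n)) with h | h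
  · left
    refine ⟨𝒰, hU2, ?_⟩
    refine hT.congr' ?_
    filter_upwards [h] with n hn
    exact abs_of_nonneg hn
  · right
    refine ⟨𝒰, hU2, ?_⟩
    have h2 : Tendsto (fun n => -|V n (r n)|) (𝒰 : Filter ℕ) atBot := tendsto_neg_atTop_atBot.comp hT
    refine h2.congr' ?_
    filter_upwards [h] with n hn
    rw [abs_of_neg (not_le.1 hn), neg_neg]

/-- tops with a uniform bound, from the first alternative of `records_seq` -/
theorem tops_of_bdd {V : ℕ → ℝ → ℝ} {g : ℕ → ℝ} (hg : ∀ n, 0 < g n) {V₁ : ℝ}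
    (h : ∀ᶠ n in atTop, ∀ᶠ S in 𝓝[>] (0 : ℝ), |V n S| ≤ V₁) :
    ∃ G : ℕ → ℝ, (∀ n, 0 < G n ∧ G n ≤ g n) ∧
      ∀ᶠ n in atTop, ∀ S, 0 < S → S ≤ G n → |V n S| ≤ V₁ := by
  classical
  have h1 : ∀ n, ∃ d, 0 < d ∧ d ≤ g n ∧ ((∀ᶠ S in 𝓝[>] (0 : ℝ), |V n S| ≤ V₁) →
      ∀ S, 0 < S → S ≤ d → |V n S| ≤ V₁) := by
    intro n
    by_cases hn : ∀ᶠ S in 𝓝[>] (0 : ℝ), |V n S| ≤ V₁
    · have hn' := hn
      rw [eventually_nhdsWithin_iff, Metric.eventually_nhds_iff] at hn'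
      obtain ⟨d, hd0, hd⟩ := hn'
      refine ⟨min (d / 2) (g n), lt_min (by linarith) (hg n), min_le_right _ _, fun _ S h1 h2 => ?_⟩
      apply hd _ h1
      rw [Real.dist_eq, sub_zero, abs_of_pos h1]
      have := h2.trans (min_le_left _ _)
      linarith
    · exact ⟨g n, hg n, le_rfl, fun h => absurd h hn⟩
  choose G h0 h2 h3 using h1
  refine ⟨G, fun n => ⟨h0 n, h2 n⟩, ?_⟩
  filter_upwards [h] with n hn
  exact h3 n hn

end Vale.Agent.P097.H128.W
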